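import Vale.Agent.Lib.P359.Check
import Vale.Agent.Lib.P359.Sharp

/-! # P359: the gap of the spherical Laughlin Hamiltonian is below 3 for every N,
together with consistency checks of the model -/

namespace Vale.Agent.Results.P359.A_GapBelowThree

open Vale.Agent.Lib.P359 Finset

/-- (A) `P_ij` is idempotent and self-adjoint for the invariant inner product; (B) `H ≥ 0`;
(C) for every `N ≥ 2`, at the Laughlin flux `Q = 3 (N - 1)`:
(C1) the Laughlin vector is antisymmetric, nonzero and `H Ψ_L = 0`;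
(C2) there is a nonzero fermionic vector orthogonal to the Laughlin vector whose energy is at most
`2 (2 Q - 1) / (Q + 1) - 1 < 3` times its squared norm;
(C3) every `δ` with `H ≥ δ (1 - P_L)` on the fermionic space satisfies `δ < 3`. -/
theorem result :
    (∀ (N Q : ℕ) (i j : Fin N), i ≠ j →
      (∀ ψ : Vec N Q, pairProj i j (pairProj i j ψ) = pairProj i j ψ) ∧
      (∀ φ ψ : Vec N Q, ip φ (pairProj i j ψ) = ip (pairProj i j φ) ψ)) ∧
    (∀ (N Q : ℕ) (ψ : Vec N Q), 0 ≤ (ip ψ (ham ψ)).re) ∧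
    (∀ N : ℕ, 2 ≤ N →
      (Antisymm (laughlin N) ∧ (∃ x, laughlin N x ≠ 0) ∧ ham (laughlin N) = 0) ∧
      (∃ Φ : Vec N (3 * (N - 1)), Antisymm Φ ∧ 0 < (ip Φ Φ).re ∧ ip (laughlin N) Φ = 0 ∧
        (ip Φ (ham Φ)).re ≤
          (2 * (2 * ((3 * (N - 1) : ℕ) : ℝ) - 1) / (((3 * (N - 1) : ℕ) : ℝ) + 1) - 1) *
            (ip Φ Φ).re) ∧
      (∀ δ : ℝ,
        (∀ ψ : Vec N (3 * (N - 1)), Antisymm ψ →
          δ * ((ip ψ ψ).re - ‖ip (laughlin N) ψ‖ ^ 2 / (ip (laughlin N) (laughlin N)).re) ≤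
            (ip ψ (ham ψ)).re) →
        δ < 3)) := by
  refine ⟨fun N Q i j hij => ⟨fun ψ => pairProj_idem hij ψ, fun φ ψ => ip_pairProj_symm hij φ ψ⟩,
    fun N Q ψ => energy_nonneg ψ, ?_⟩
  intro N hN
  have hQ : 1 ≤ 3 * (N - 1) := by omega
  have hpos : 0 < (ip (trial N) (trial N)).re := by
    rw [ip_self]
    obtain ⟨x, hx⟩ := trial_ne_zero N hN
    rw [Complex.ofReal_re]
    apply Finset.sum_pos'
    · intro y _
      have := wt_pos y
      positivity
    · refine ⟨x, Finset.mem_univ _, ?_⟩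
      have h1 := wt_pos x
      have h2 : 0 < ‖trial N x‖ := norm_pos_iff.2 hx
      positivity
  have hE : (ip (trial N) (ham (trial N))).re ≤
      (2 * (2 * ((3 * (N - 1) : ℕ) : ℝ) - 1) / (((3 * (N - 1) : ℕ) : ℝ) + 1) - 1) *
        (ip (trial N) (trial N)).re := by
    have h := energy_le_sharp (trial N) hQ (trial_antisymm N) (trial_bdry N)
      (trial_eq_zero_of_one N)
    rw [sum_dM _ hQ, dM_one _ hQ] at h
    calc _ ≤ _ := h
      _ = _ := by ring
  refine ⟨⟨laughlin_antisymm N, laughlin_ne_zero N (by omega), ham_laughlin N⟩,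
    ⟨trial N, trial_antisymm N, hpos, ip_laughlin_trial N hN, hE⟩, ?_⟩
  intro δ hδ
  have h1 := hδ (trial N) (trial_antisymm N)
  rw [ip_laughlin_trial N hN] at h1
  simp only [norm_zero, ne_eq, OfNat.ofNat_ne_zero, not_false_eq_true, zero_pow, zero_div,
    sub_zero] at h1
  have h2 := h1.trans hE
  have h3 := le_of_mul_le_mul_right h2 hpos
  refine lt_of_le_of_lt h3 ?_
  have hq : (0 : ℝ) < ((3 * (N - 1) : ℕ) : ℝ) + 1 := by positivity
  rw [sub_lt_iff_lt_add, div_lt_iff₀ hq]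
  linarith

end Vale.Agent.Results.P359.A_GapBelowThree
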