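import Vale.Agent.Lib.P359.Trial

/-! # P359: a uniform upper bound for the gap of the spherical Laughlin Hamiltonian -/

namespace Vale.Agent.Results.P359.GapUpperBound

open Vale.Agent.Lib.P359 Finset

/-- For every `N ≥ 2`, at the Laughlin flux `Q = 3 (N - 1)`:
(1) there is a nonzero fermionic vector orthogonal to the Laughlin vector whose energy is at most
`2 (2 Q - 1) / (Q + 1) < 4` times its squared norm;
(2) consequently every `δ` with `H ≥ δ (1 - P_L)` on the fermionic space satisfies `δ < 4`. -/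
theorem result (N : ℕ) (hN : 2 ≤ N) :
    (∃ Φ : Vec N (3 * (N - 1)), Antisymm Φ ∧ 0 < (ip Φ Φ).re ∧ ip (laughlin N) Φ = 0 ∧
      (ip Φ (ham Φ)).re ≤
        2 * (2 * ((3 * (N - 1) : ℕ) : ℝ) - 1) / (((3 * (N - 1) : ℕ) : ℝ) + 1) * (ip Φ Φ).re) ∧
    (∀ δ : ℝ,
      (∀ ψ : Vec N (3 * (N - 1)), Antisymm ψ →
        δ * ((ip ψ ψ).re - ‖ip (laughlin N) ψ‖ ^ 2 / (ip (laughlin N) (laughlin N)).re) ≤
          (ip ψ (ham ψ)).re) →
      δ < 4) := by
  have hQ : 1 ≤ 3 * (N - 1) := by omega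
  have hpos : 0 < (ip (trial N) (trial N)).re := by
    rw [ip_self]
    obtain ⟨x, hx⟩ := trial_ne_zero N hN
    rw [Complex.ofReal_re]
    apply Finset.sum_pos'
    · intro y _
      have := wt_pos y
      positivity
    · refine ⟨x, Finset.mem_univ _, ?_⟩
      have h1 := wt_pos x
      have h2 : 0 < ‖trial N x‖ := norm_pos_iff.2 hx
      positivity
  have hE : (ip (trial N) (ham (trial N))).re ≤
      2 * (2 * ((3 * (N - 1) : ℕ) : ℝ) - 1) / (((3 * (N - 1) : ℕ) : ℝ) + 1) *
        (ip (trial N) (trial N)).re := by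
    have h := energy_le (trial N) (trial_antisymm N) (trial_bdry N)
    rw [sum_dM _ hQ] at h
    calc _ ≤ _ := h
      _ = _ := by ring
  refine ⟨⟨trial N, trial_antisymm N, hpos, ip_laughlin_trial N hN, hE⟩, ?_⟩
  intro δ hδ
  have h1 := hδ (trial N) (trial_antisymm N)
  rw [ip_laughlin_trial N hN] at h1
  simp only [norm_zero, ne_eq, OfNat.ofNat_ne_zero, not_false_eq_true, zero_pow, zero_div,
    sub_zero] at h1
  have h2 := h1.trans hE
  have h3 := le_of_mul_le_mul_right h2 hpos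
  refine lt_of_le_of_lt h3 ?_
  have hq : (0 : ℝ) < ((3 * (N - 1) : ℕ) : ℝ) + 1 := by positivity
  rw [div_lt_iff₀ hq]
  linarith

end Vale.Agent.Results.P359.GapUpperBound
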